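import Vale.Agent.P181.Core

namespace Vale.Agent.P181

open Finset Equiv

variable {ι W R : Type*} [DecidableEq ι] [Fintype ι] [AddCommGroup W] [Module ℂ W] [CommRing R]
  [Algebra ℂ R]

def GG (s : Finset ι) : Finset (Perm ι) := univ.filter fun τ => ∀ j, j ∉ s → τ j = j

lemma mem_GG {s : Finset ι} {τ : Perm ι} : τ ∈ GG s ↔ ∀ j, j ∉ s → τ j = j := by simp [GG]

lemma GG_card (s : Finset ι) : ((GG s).card : ℂ) ≠ 0 := by
  rw [Nat.cast_ne_zero, Finset.card_ne_zero]
  exact ⟨1, mem_GG.2 fun _ _ => rfl⟩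

def Av (ρ : Perm ι → R →ₐ[ℂ] R) (s : Finset ι) : R →ₗ[ℂ] R := ∑ τ ∈ GG s, (ρ τ).toLinearMap

lemma Av_apply (ρ : Perm ι → R →ₐ[ℂ] R) (s : Finset ι) (x : R) :
    Av ρ s x = ∑ τ ∈ GG s, ρ τ x := by simp [Av, LinearMap.sum_apply]

def Fx (ρ : Perm ι → R →ₐ[ℂ] R) (s : Finset ι) : Subalgebra ℂ R where
  carrier := {x | ∀ τ ∈ GG s, ρ τ x = x}
  mul_mem' hx hy τ hτ := by rw [map_mul, hx τ hτ, hy τ hτ]
  add_mem' hx hy τ hτ := by rw [map_add, hx τ hτ, hy τ hτ]
  algebraMap_mem' r τ _ := by simp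

lemma pow_le_sub (S : Subalgebra ℂ R) (M : Submodule ℂ R) (h : M ≤ Subalgebra.toSubmodule S)
    (n : ℕ) : M ^ n ≤ Subalgebra.toSubmodule S := by
  induction n with
  | zero => rw [pow_zero, Submodule.one_le]; exact S.one_mem
  | succ n ih =>
    rw [pow_succ, Submodule.mul_le]
    exact fun x hx y hy => S.mul_mem (ih hx) (h hy)

lemma Av_mul (ρ : Perm ι → R →ₐ[ℂ] R) (s : Finset ι) {β : R} (hβ : β ∈ Fx ρ s) (x : R) :
    Av ρ s (β * x) = β * Av ρ s x := by
  rw [Av_apply, Av_apply, Finset.mul_sum]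
  exact Finset.sum_congr rfl fun τ hτ => by rw [map_mul, hβ τ hτ]

variable {l : ι → W →ₗ[ℂ] R} {ρ : Perm ι → R →ₐ[ℂ] R}
  (hρ : ∀ τ σ x, ρ (τ * σ) x = ρ τ (ρ σ x)) (hl : ∀ τ i w, ρ τ (l i w) = l (τ i) w)

include hρ in
lemma Av_rho (s : Finset ι) {σ : Perm ι} (hσ : σ ∈ GG s) (x : R) :
    Av ρ s (ρ σ x) = Av ρ s x := by
  rw [Av_apply, Av_apply]
  refine Finset.sum_equiv (Equiv.mulRight σ) (fun τ => ?_) (fun τ _ => (hρ τ σ x).symm)
  rw [mem_GG] at hσ
  simp only [mem_GG, coe_mulRight, Perm.mul_apply]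
  exact forall₂_congr fun j hj => by rw [hσ j hj]

include hl in
lemma pp_mem_Fx (s : Finset ι) (v : W) : pp l s v ∈ Fx ρ s := by
  intro τ hτ
  rw [mem_GG] at hτ
  simp only [pp, map_prod, hl]
  exact Perm.prod_comp τ s (fun j => l j v) fun j hj => by
    by_contra h
    exact hj (hτ j h)

include hl in
lemma PP_le_Fx (s : Finset ι) (N : ℕ) : PP l s N ≤ Subalgebra.toSubmodule (Fx ρ s) := by
  rw [PP, Submodule.span_le]
  rintro _ ⟨v, rfl⟩
  exact (Fx ρ s).pow_mem (pp_mem_Fx hl s v) N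

include hl in
lemma UU_le_Fx {s : Finset ι} {i : ι} (hi : i ∉ s) :
    UU l i ≤ Subalgebra.toSubmodule (Fx ρ s) := by
  rintro _ ⟨v, rfl⟩ τ hτ
  rw [hl, mem_GG.1 hτ i hi]

include hρ hl in
lemma Av_newton {s : Finset ι} {i : ι} (hi : i ∉ s) (v z : W) (k : ℕ) :
    Av ρ (insert i s) (pp l s v ^ k * l i z ^ k) ∈ PP l (insert i s) 1 ^ k := by
  have h1 := newton l (insert i s) v z k
  have h2 : ∀ j ∈ insert i s, Av ρ (insert i s) ((l j z * pp l ((insert i s).erase j) v) ^ k) =
      Av ρ (insert i s) (pp l s v ^ k * l i z ^ k) := by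
    intro j hj
    have hσ : swap i j ∈ GG (insert i s) := by
      rw [mem_GG]
      intro x hx
      apply swap_apply_of_ne_of_ne
      · rintro rfl; exact hx (mem_insert_self _ _)
      · rintro rfl; exact hx hj
    rw [← Av_rho hρ _ hσ (pp l s v ^ k * l i z ^ k)]
    congr 1
    simp only [map_mul, map_pow, hl, swap_apply_left, pp, map_prod, mul_pow]
    rw [mul_comm]
    congr 2
    refine (Finset.prod_equiv (swap i j) (fun x => ?_) (fun x _ => rfl)).symm
    simp only [mem_erase, mem_insert] at hj ⊢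
    rw [swap_apply_def]
    split_ifs with h3 h4
    · subst h3; simp [hi]
    · subst h4
      rcases hj with hj | hj
      · exact absurd hj h3
      · simp [hj, Ne.symm h3]
    · simp [h3, h4]
  have h3 := congrArg (Av ρ (insert i s)) (rfl : ∑ j ∈ insert i s,
    (l j z * pp l ((insert i s).erase j) v) ^ k = _)
  conv_lhs at h3 => rw [map_sum, Finset.sum_congr rfl h2, sum_const]
  have h4 := pow_le_sub _ _ (PP_le_Fx hl (insert i s) 1) k h1
  rw [Av_apply ρ _ (∑ j ∈ _, _), Finset.sum_congr rfl h4, sum_const] at h3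
  have h5 : ((insert i s).card : ℂ) ≠ 0 := by
    rw [Nat.cast_ne_zero, Finset.card_ne_zero]; exact insert_nonempty _ _
  rw [← Submodule.smul_mem_iff _ h5, Nat.cast_smul_eq_nsmul, h3]
  exact Submodule.smul_of_tower_mem _ _ h1

include hρ hl in
theorem Av_AA (s : Finset ι) (b : ℕ) (hb : (s.card - 1) ^ 2 ≤ b) :
    ∀ x ∈ AA l s b, Av ρ s x ∈ PP l s 1 ^ b := by
  induction s using Finset.induction_on generalizing b with
  | empty =>
    intro x hx
    have h1 : (1 : Submodule ℂ R) ≤ PP l ∅ 1 ^ b := by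
      rw [Submodule.one_le]
      simpa [pp] using Submodule.pow_mem_pow _ (mem_PP l ∅ 1 0) b
    simp only [AA, prod_empty] at hx
    obtain ⟨r, rfl⟩ := Submodule.mem_one.1 hx
    rw [Av_apply]
    exact Submodule.sum_mem _ fun τ _ => by rw [AlgHom.commutes]; exact h1 hx
  | insert i s hi ih =>
    rw [Finset.card_insert_of_notMem hi, Nat.add_sub_cancel] at hb
    obtain ⟨c, rfl⟩ : ∃ c, b = c + s.card := ⟨b - s.card, by
      have : s.card ≤ s.card ^ 2 := Nat.le_self_pow (by norm_num) _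
      omega⟩
    have hc : (s.card - 1) ^ 2 ≤ c := by
      rcases Nat.eq_zero_or_pos s.card with h | h
      · simp [h]
      · obtain ⟨k, hk⟩ : ∃ k, s.card = k + 1 := ⟨s.card - 1, by omega⟩
        rw [hk] at hb ⊢
        simp only [Nat.add_sub_cancel]
        nlinarith
    have hT : AA l (insert i s) (c + s.card) ≤
        (PP l (insert i s) 1 ^ (c + s.card)).comap (Av ρ (insert i s)) := by
      rw [AA, prod_insert hi]
      refine le_trans (mul_le_mul' le_rfl (AA_le l s s.card c (by nlinarith))) ?_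
      rw [mul_left_comm, PP, ← Submodule.span_eq (UU l i ^ (c + s.card) * AA l s c),
        Submodule.span_mul_span, Submodule.span_le]
      rintro _ ⟨_, ⟨v, rfl⟩, y, hy, rfl⟩
      -- step 1: the final averaging
      have step1 : PP l (insert i s) 1 ^ c * UU l i ^ s.card ≤
          ((PP l (insert i s) 1 ^ (c + s.card)).comap (Av ρ (insert i s))).comap
            (LinearMap.mulLeft ℂ (pp l s v ^ s.card)) := by
        rw [Submodule.mul_le]
        intro β hβ h hh
        have hβ' := pow_le_sub _ _ (PP_le_Fx hl (insert i s) 1) c hβ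
        simp only [Submodule.mem_comap, LinearMap.mulLeft_apply]
        rw [mul_left_comm, Av_mul ρ _ hβ', pow_add]
        refine Submodule.mul_mem_mul hβ ?_
        have := pow_le_span_pow (l i) _ hh
        clear hh
        induction this using Submodule.span_induction with
        | mem x hx => obtain ⟨z, rfl⟩ := hx; exact Av_newton hρ hl hi v z _
        | zero => simp
        | add x y _ _ hx hy => rw [mul_add, map_add]; exact Submodule.add_mem _ hx hy
        | smul a x _ hx => rw [mul_smul_comm, map_smul]; exact Submodule.smul_mem _ _ hx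
      have step2 : UU l i ^ (c + s.card) * AA l s c ≤
          ((PP l (insert i s) 1 ^ (c + s.card)).comap (Av ρ (insert i s))).comap
            (LinearMap.mulLeft ℂ (pp l s v ^ s.card)) := by
        rw [Submodule.mul_le]
        intro h hh y hy
        have h1 := step1 (pieri_iter l hi c (Submodule.mul_mem_mul (ih c hc y hy) hh))
        simp only [Submodule.mem_comap, LinearMap.mulLeft_apply] at h1 ⊢
        have h2 : pp l s v ^ s.card * h ∈ Fx ρ s :=
          (Fx ρ s).mul_mem ((Fx ρ s).pow_mem (pp_mem_Fx hl s v) _)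
            (pow_le_sub _ _ (UU_le_Fx hl hi) _ hh)
        rw [mul_comm (Av ρ s y), ← mul_assoc, ← Av_mul ρ s h2, Av_apply ρ s, map_sum,
          Finset.sum_congr rfl (fun τ hτ => Av_rho hρ (insert i s) (σ := τ)
            (mem_GG.2 fun j hj => mem_GG.1 hτ j fun h => hj (mem_insert_of_mem h)) _),
          sum_const, ← Nat.cast_smul_eq_nsmul ℂ, Submodule.smul_mem_iff _ (GG_card s),
          mul_assoc] at h1
        exact h1
      exact step2 hy
    exact fun x hx => hT hx

end Vale.Agent.P181
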