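import Vale.Agent.P181.Polar

namespace Vale.Agent.P181

open Finset Polynomial

variable {ι W R : Type*} [DecidableEq ι] [AddCommGroup W] [Module ℂ W] [CommRing R] [Algebra ℂ R]
  (l : ι → W →ₗ[ℂ] R)

def UU (i : ι) : Submodule ℂ R := LinearMap.range (l i)

def pp (s : Finset ι) (v : W) : R := ∏ j ∈ s, l j v

def PP (s : Finset ι) (N : ℕ) : Submodule ℂ R :=
  Submodule.span ℂ (Set.range fun v => pp l s v ^ N)

noncomputable def Zp (s : Finset ι) (N : ℕ) (v w : W) : R[X] :=
  ∏ j ∈ s, (C (l j v) + X * C (l j w)) ^ N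

def AA (s : Finset ι) (b : ℕ) : Submodule ℂ R := ∏ i ∈ s, UU l i ^ b

omit [DecidableEq ι] in
lemma mem_UU (i : ι) (v : W) : l i v ∈ UU l i := ⟨v, rfl⟩

omit [DecidableEq ι] in
lemma mem_PP (s : Finset ι) (N : ℕ) (v : W) : pp l s v ^ N ∈ PP l s N :=
  Submodule.subset_span ⟨v, rfl⟩

omit [DecidableEq ι] in
lemma Zp_coeff_mem (s : Finset ι) (N : ℕ) (v w : W) (j : ℕ) : (Zp l s N v w).coeff j ∈ PP l s N := by
  apply coeff_mem
  intro t
  have : (Zp l s N v w).eval (algebraMap ℂ R t) = pp l s (v + t • w) ^ N := by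
    simp only [Zp, pp, eval_prod, eval_pow, eval_add, eval_C, eval_mul, eval_X, map_add, map_smul,
      Algebra.smul_def, Finset.prod_pow]
  rw [this]
  exact mem_PP l s N _

omit [DecidableEq ι] in
lemma Zp_top (s : Finset ι) (N : ℕ) (v w : W) :
    (Zp l s N v w).coeff (s.card * N) = pp l s w ^ N := by
  rw [Zp, coeff_prod_of_natDegree_le _ _ _ fun p _ => natDegree_lin_pow _ _ _]
  simp only [coeff_lin_pow]
  simp [pp, Finset.prod_pow]

lemma pieri_key {s : Finset ι} {i : ι} (hi : i ∉ s) (N : ℕ) (v w : W) (j : ℕ) :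
    l i v ^ (N + j) * (Zp l s N v w).coeff j ∈ PP l (insert i s) N * UU l i ^ j := by
  induction j using Nat.strong_induction_on with
  | _ j ih =>
  have h1 : (Zp l (insert i s) N v w).coeff j * l i v ^ j ∈ PP l (insert i s) N * UU l i ^ j :=
    Submodule.mul_mem_mul (Zp_coeff_mem l _ N v w j) (Submodule.pow_mem_pow _ (mem_UU l i v) j)
  rw [Zp, Finset.prod_insert hi, coeff_mul, Finset.sum_mul,
    ← Finset.add_sum_erase _ _ (a := (0, j)) (by simp)] at h1
  have h2 : ∑ x ∈ (antidiagonal j).erase (0, j), ((C (l i v) + X * C (l i w)) ^ N).coeff x.1 *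
      (∏ j ∈ s, (C (l j v) + X * C (l j w)) ^ N).coeff x.2 * l i v ^ j ∈
      PP l (insert i s) N * UU l i ^ j := by
    refine Submodule.sum_mem _ fun x hx => ?_
    obtain ⟨c, d⟩ := x
    simp only [mem_erase, ne_eq, Prod.mk.injEq, not_and, HasAntidiagonal.mem_antidiagonal] at hx
    obtain ⟨hx1, rfl⟩ := hx
    have hd : d < c + d := by
      by_contra h
      exact hx1 (by omega) (by omega)
    simp only [coeff_lin_pow]
    rcases le_or_gt c N with hc | hc
    · have h3 := Submodule.mul_mem_mul (ih d hd) (Submodule.pow_mem_pow _ (mem_UU l i w) c)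
      rw [mul_assoc (PP l (insert i s) N), ← pow_add, add_comm d c] at h3
      have h4 := Submodule.smul_mem _ (N.choose c : ℂ) h3
      convert h4 using 1
      obtain ⟨e, rfl⟩ := Nat.exists_eq_add_of_le hc
      rw [Algebra.smul_def, map_natCast, Nat.add_sub_cancel_left, Zp]
      ring
    · rw [Nat.choose_eq_zero_of_lt hc]; simp
  have h5 := Submodule.sub_mem _ h1 h2
  rw [add_sub_cancel_right] at h5
  convert h5 using 1
  simp only [coeff_lin_pow, Zp]
  simp
  ring

lemma pieri {s : Finset ι} {i : ι} (hi : i ∉ s) (N : ℕ) :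
    PP l s N * UU l i ^ (N + s.card * N) ≤ PP l (insert i s) N * UU l i ^ (s.card * N) := by
  refine le_trans (mul_le_mul' le_rfl (pow_le_span_pow (l i) _)) ?_
  rw [PP, Submodule.span_mul_span, Submodule.span_le]
  rintro _ ⟨_, ⟨w, rfl⟩, _, ⟨v, rfl⟩, rfl⟩
  have := pieri_key l hi N v w (s.card * N)
  rw [Zp_top, mul_comm (l i v ^ _)] at this
  exact this

lemma pieri_iter {s : Finset ι} {i : ι} (hi : i ∉ s) (c : ℕ) :
    PP l s 1 ^ c * UU l i ^ (c + s.card) ≤ PP l (insert i s) 1 ^ c * UU l i ^ s.card := by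
  induction c with
  | zero => simp
  | succ c ih =>
    have h := pieri l hi 1
    rw [mul_one] at h
    calc PP l s 1 ^ (c + 1) * UU l i ^ (c + 1 + s.card)
        = (PP l s 1 * UU l i ^ (1 + s.card)) * (PP l s 1 ^ c * UU l i ^ c) := by ring
      _ ≤ (PP l (insert i s) 1 * UU l i ^ s.card) * (PP l s 1 ^ c * UU l i ^ c) :=
        mul_le_mul' h le_rfl
      _ = PP l (insert i s) 1 * (PP l s 1 ^ c * UU l i ^ (c + s.card)) := by ring
      _ ≤ PP l (insert i s) 1 * (PP l (insert i s) 1 ^ c * UU l i ^ s.card) :=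
        mul_le_mul' le_rfl ih
      _ = _ := by ring

lemma AA_le (s : Finset ι) (N c : ℕ) (h : s.card * N ≤ c + N) :
    AA l s (c + N) ≤ PP l s N * AA l s c := by
  induction s using Finset.induction_on with
  | empty =>
    simp only [AA, prod_empty, mul_one, Submodule.one_le]
    simpa [pp] using mem_PP l ∅ N 0
  | insert i s hi ih =>
    rw [Finset.card_insert_of_notMem hi] at h
    have h1 : s.card * N ≤ c := by nlinarith
    obtain ⟨e, rfl⟩ := Nat.exists_eq_add_of_le h1
    have ih' := ih (by omega)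
    simp only [AA, prod_insert hi] at ih' ⊢
    calc UU l i ^ (s.card * N + e + N) * ∏ i ∈ s, UU l i ^ (s.card * N + e + N)
        ≤ UU l i ^ (s.card * N + e + N) * (PP l s N * ∏ i ∈ s, UU l i ^ (s.card * N + e)) :=
          mul_le_mul' le_rfl ih'
      _ = (PP l s N * UU l i ^ (N + s.card * N)) *
          (UU l i ^ e * ∏ i ∈ s, UU l i ^ (s.card * N + e)) := by ring
      _ ≤ (PP l (insert i s) N * UU l i ^ (s.card * N)) *
          (UU l i ^ e * ∏ i ∈ s, UU l i ^ (s.card * N + e)) := mul_le_mul' (pieri l hi N) le_rfl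
      _ = _ := by ring

lemma newton_key (s : Finset ι) (v z : W) (c m : ℕ) :
    ∑ j ∈ s, (l j z * pp l (s.erase j) v) ^ c * (l j z * (Zp l (s.erase j) 1 v z).coeff m) ∈
      PP l s 1 ^ (c + 1) := by
  have hZ : ∀ j ∈ s, Zp l s 1 v z = (C (l j v) + X * C (l j z)) * Zp l (s.erase j) 1 v z := by
    intro j hj
    rw [Zp, ← Finset.mul_prod_erase _ _ hj, pow_one, Zp]
  have h0 : ∀ t : Finset ι, (Zp l t 1 v z).coeff 0 = pp l t v := by
    intro t
    simp [Zp, pp, coeff_zero_eq_eval_zero, eval_prod]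
  induction c generalizing m with
  | zero =>
    have h1 : derivative (Zp l s 1 v z) = ∑ j ∈ s, C (l j z) * Zp l (s.erase j) 1 v z := by
      rw [Zp, derivative_prod_finset]
      refine Finset.sum_congr rfl fun j _ => ?_
      simp only [Zp, pow_one, derivative_add, derivative_C, derivative_mul, derivative_X]
      ring
    have h2 := congrArg (fun Q : R[X] => Q.coeff m) h1
    simp only [coeff_derivative, finset_sum_coeff, coeff_C_mul] at h2
    simp only [pow_zero, one_mul, zero_add, pow_one, ← h2]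
    have := Submodule.smul_mem _ ((m : ℂ) + 1) (Zp_coeff_mem l s 1 v z (m + 1))
    rwa [Algebra.smul_def, map_add, map_natCast, map_one, mul_comm] at this
  | succ c ih =>
    have h1 : ∑ j ∈ s, (l j z * pp l (s.erase j) v) ^ (c + 1) *
        (l j z * (Zp l (s.erase j) 1 v z).coeff m) =
        (∑ j ∈ s, (l j z * pp l (s.erase j) v) ^ c * (l j z * (Zp l (s.erase j) 1 v z).coeff 0))
          * (Zp l s 1 v z).coeff (m + 1) -
        (∑ j ∈ s, (l j z * pp l (s.erase j) v) ^ c *
          (l j z * (Zp l (s.erase j) 1 v z).coeff (m + 1))) * (Zp l s 1 v z).coeff 0 := by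
      rw [Finset.sum_mul, Finset.sum_mul, ← Finset.sum_sub_distrib]
      refine Finset.sum_congr rfl fun j hj => ?_
      rw [hZ j hj, add_mul, mul_assoc X, coeff_add, coeff_add, coeff_C_mul, coeff_C_mul,
        coeff_X_mul, coeff_X_mul_zero, coeff_C_mul, h0]
      ring
    rw [h1, pow_succ (PP l s 1) (c + 1)]
    exact Submodule.sub_mem _ (Submodule.mul_mem_mul (ih 0) (Zp_coeff_mem l s 1 v z _))
      (Submodule.mul_mem_mul (ih (m + 1)) (Zp_coeff_mem l s 1 v z _))

lemma newton (s : Finset ι) (v z : W) (k : ℕ) :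
    ∑ j ∈ s, (l j z * pp l (s.erase j) v) ^ k ∈ PP l s 1 ^ k := by
  cases k with
  | zero =>
    simp only [pow_zero, sum_const]
    exact Submodule.smul_of_tower_mem _ _ (Submodule.one_le.1 le_rfl)
  | succ c =>
    have := newton_key l s v z c 0
    simpa [Zp, pp, coeff_zero_eq_eval_zero, eval_prod, pow_succ] using this

end Vale.Agent.P181
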