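import Mathlib

namespace Vale.Agent.P181

universe u v

/-- The `k`-th symmetric power of a complex vector space (Mathlib's `SymmetricPower`). -/
def SymP (k : ℕ) (M : Type u) [AddCommGroup M] [Module ℂ M] : Type u :=
  SymmetricPower ℂ (Fin k) M

noncomputable instance instGroup (k : ℕ) (M : Type u) [AddCommGroup M] [Module ℂ M] :
    AddCommGroup (SymP k M) := SymmetricPower.instAddCommGroup (Fin k) ℂ M

noncomputable instance instModule (k : ℕ) (M : Type u) [AddCommGroup M] [Module ℂ M] :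
    Module ℂ (SymP k M) := SymmetricPower.module ℂ (Fin k) M

/-- The product `m₁ ⋯ m_k` in the symmetric power. -/
noncomputable def sprod {k : ℕ} {M : Type u} [AddCommGroup M] [Module ℂ M] (m : Fin k → M) :
    SymP k M := SymmetricPower.tprod ℂ m

theorem exists_symLift {k : ℕ} {M : Type u} {N : Type v} [AddCommGroup M] [Module ℂ M]
    [AddCommGroup N] [Module ℂ N] (μ : MultilinearMap ℂ (fun _ : Fin k => M) N)
    (hμ : ∀ (σ : Equiv.Perm (Fin k)) (m : Fin k → M), μ (fun i => m (σ i)) = μ m) :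
    ∃ F : SymP k M →ₗ[ℂ] N, ∀ m, F (sprod m) = μ m :=
  ⟨{ toFun := AddCon.lift _ (PiTensorProduct.lift μ).toAddMonoidHom
        (AddCon.addConGen_le.2 fun _ _ h => by
          cases h with
          | perm e f => simpa [AddCon.ker_rel] using (hμ e f).symm)
     map_add' := map_add _
     map_smul' := fun c x => AddCon.induction_on x fun x =>
       (PiTensorProduct.lift μ).map_smul c x }, fun m => PiTensorProduct.lift.tprod m⟩

/-- `F` is the map `Symᵏ f`: it sends `m₁ ⋯ m_k` to `f m₁ ⋯ f m_k`. -/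
def IsSymMap {k : ℕ} {M : Type u} [AddCommGroup M] [Module ℂ M] (f : M →ₗ[ℂ] M)
    (F : SymP k M →ₗ[ℂ] SymP k M) : Prop :=
  ∀ m : Fin k → M, F (sprod m) = sprod fun i => f (m i)

theorem exists_symMap (k : ℕ) {M : Type u} [AddCommGroup M] [Module ℂ M] (f : M →ₗ[ℂ] M) :
    ∃ F : SymP k M →ₗ[ℂ] SymP k M, IsSymMap f F :=
  exists_symLift (N := SymP k M) ((SymmetricPower.tprod ℂ).compLinearMap fun _ => f)
    fun σ m => SymmetricPower.tprod_equiv σ fun i => f (m i)

/-- Functoriality of symmetric powers: the (unique) linear map `Symᵏ f` sending `m₁ ⋯ m_k` to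
`f m₁ ⋯ f m_k`. -/
noncomputable def symMap (k : ℕ) {M : Type u} [AddCommGroup M] [Module ℂ M] (f : M →ₗ[ℂ] M) :
    SymP k M →ₗ[ℂ] SymP k M := (exists_symMap k f).choose

/-- `Φ` is the canonical Foulkes-Howe map. -/
def IsFoulkesHowe {a b : ℕ} {V : Type u} [AddCommGroup V] [Module ℂ V]
    (Φ : SymP a (SymP b V) →ₗ[ℂ] SymP b (SymP a V)) : Prop :=
  ∀ v : Fin a → Fin b → V, Φ (sprod fun i => sprod fun j => v i j) =
    ∑ σ : Fin a → Equiv.Perm (Fin b), sprod fun j => sprod fun i => v i (σ i j)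

/-- `Φ` commutes with the natural actions of `GL(V)`. -/
def IsEquivariant {a b : ℕ} {V : Type u} [AddCommGroup V] [Module ℂ V]
    (Φ : SymP a (SymP b V) →ₗ[ℂ] SymP b (SymP a V)) : Prop :=
  ∀ (g : V ≃ₗ[ℂ] V) (x : SymP a (SymP b V)),
    Φ (symMap a (symMap b g.toLinearMap) x) = symMap b (symMap a g.toLinearMap) (Φ x)

end Vale.Agent.P181
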