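import Vale.Agent.P181.Defs
import Vale.Agent.P181.Avg

namespace Vale.Agent.P181

open TensorProduct Finset Equiv SymmetricPower
open scoped Nat

universe u v

section
variable {k : ℕ} {M : Type u} {N : Type v} [AddCommGroup M] [Module ℂ M]
    [AddCommGroup N] [Module ℂ N]

noncomputable def symLift (μ : MultilinearMap ℂ (fun _ : Fin k => M) N)
    (hμ : ∀ (σ : Equiv.Perm (Fin k)) (m : Fin k → M), μ (fun i => m (σ i)) = μ m) :
    SymmetricPower ℂ (Fin k) M →ₗ[ℂ] N := (exists_symLift μ hμ).choose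

lemma symLift_tprod (μ : MultilinearMap ℂ (fun _ : Fin k => M) N)
    (hμ : ∀ (σ : Equiv.Perm (Fin k)) (m : Fin k → M), μ (fun i => m (σ i)) = μ m)
    (m : Fin k → M) : symLift μ hμ (tprod ℂ m) = μ m :=
  (exists_symLift μ hμ).choose_spec m

lemma symMap_sprod (f : M →ₗ[ℂ] M) (m : Fin k → M) :
    symMap k f (sprod m) = sprod fun i => f (m i) := (exists_symMap k f).choose_spec m

lemma sym_ext {F G : SymmetricPower ℂ (Fin k) M →ₗ[ℂ] N}
    (h : ∀ m, F (tprod ℂ m) = G (tprod ℂ m)) : F = G :=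
  LinearMap.ext_on_range (span_tprod_eq_top ℂ (Fin k) M) h

lemma sym_ext_gen {γ : Type*} (g : γ → M) (hg : Submodule.span ℂ (Set.range g) = ⊤)
    {F G : SymmetricPower ℂ (Fin k) M →ₗ[ℂ] N}
    (h : ∀ j : Fin k → γ, F (tprod ℂ fun i => g (j i)) = G (tprod ℂ fun i => g (j i))) :
    F = G := by
  have : F ∘ₗ mk ℂ (Fin k) M = G ∘ₗ mk ℂ (Fin k) M :=
    PiTensorProduct.ext_of_span_eq_top (R := ℂ) (M := fun _ : Fin k => M)
      (γ := fun _ => γ) (g := fun _ => g) (fun _ => hg) h
  exact sym_ext fun m => LinearMap.congr_fun this (PiTensorProduct.tprod ℂ m)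

lemma span_pure (k : ℕ) (M : Type u) [AddCommGroup M] [Module ℂ M] :
    Submodule.span ℂ (Set.range fun y : M =>
      (tprod ℂ (fun _ : Fin k => y) : SymmetricPower ℂ (Fin k) M)) = ⊤ := by
  rw [eq_top_iff, ← span_tprod_eq_top ℂ (Fin k) M, Submodule.span_le]
  rintro _ ⟨w, rfl⟩
  refine polar (κ := Fin k) (W := M) (N := SymmetricPower ℂ (Fin k) M) (tprod ℂ)
    (fun σ w => tprod_equiv σ w) _ (fun v => ?_) w
  exact Submodule.subset_span (Set.mem_range_self v)

/-- the permanent functional -/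
noncomputable def pm (f : Fin k → Module.Dual ℂ M) : SymmetricPower ℂ (Fin k) M →ₗ[ℂ] ℂ :=
  symLift (∑ σ : Perm (Fin k),
    ((MultilinearMap.mkPiAlgebra ℂ (Fin k) ℂ).compLinearMap f).domDomCongr σ) (by
      intro τ m
      simp only [MultilinearMap.sum_apply, MultilinearMap.domDomCongr_apply,
        MultilinearMap.compLinearMap_apply, MultilinearMap.mkPiAlgebra_apply]
      exact Fintype.sum_equiv (Equiv.mulLeft τ) _ _ fun σ => rfl)

lemma pm_tprod (f : Fin k → Module.Dual ℂ M) (m : Fin k → M) :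
    pm f (tprod ℂ m) = ∑ σ : Perm (Fin k), ∏ j, f j (m (σ j)) := by
  rw [pm, symLift_tprod]
  simp

lemma expand {γ : Type*} [Fintype γ] (μ : MultilinearMap ℂ (fun _ : Fin k => M) N)
    (c : Fin k → γ → ℂ) (E : γ → M) :
    μ (fun j => ∑ p, c j p • E p) = ∑ P : Fin k → γ, (∏ j, c j (P j)) • μ fun j => E (P j) := by
  rw [μ.map_sum (fun j p => c j p • E p)]
  exact Finset.sum_congr rfl fun P _ => μ.map_smul_univ _ _

lemma frame {γ : Type*} [Fintype γ] (f : γ → Module.Dual ℂ M) (E : γ → M) (c : ℂ)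
    (h : ∀ m, c • m = ∑ p, f p m • E p) (x : SymmetricPower ℂ (Fin k) M) :
    ((k ! : ℂ) * c ^ k) • x =
      ∑ P : Fin k → γ, pm (fun j => f (P j)) x • tprod ℂ fun j => E (P j) := by
  have : ((k ! : ℂ) * c ^ k) • (LinearMap.id : SymmetricPower ℂ (Fin k) M →ₗ[ℂ] _) =
      ∑ P : Fin k → γ, (pm fun j => f (P j)).smulRight (tprod ℂ fun j => E (P j)) := by
    refine sym_ext fun m => ?_
    simp only [LinearMap.smul_apply, LinearMap.id_apply, LinearMap.sum_apply,
      LinearMap.smulRight_apply, pm_tprod, Finset.sum_smul]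
    rw [Finset.sum_comm]
    have : ∀ σ : Perm (Fin k), ∑ P : Fin k → γ, (∏ j, f (P j) (m (σ j))) •
        (tprod ℂ fun j => E (P j) : SymmetricPower ℂ (Fin k) M) = c ^ k • tprod ℂ m := by
      intro σ
      rw [← expand (tprod ℂ) (fun j p => f p (m (σ j))) E]
      simp only [← h]
      rw [MultilinearMap.map_smul_univ, tprod_equiv σ m]
      simp
    simp only [this, sum_const, card_univ, Fintype.card_perm, Fintype.card_fin, mul_smul,
      Nat.cast_smul_eq_nsmul]
  simpa using LinearMap.congr_fun this x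

end

variable {V : Type u} [AddCommGroup V] [Module ℂ V]

theorem exists_FH (a b : ℕ) [FiniteDimensional ℂ V] :
    ∃ Φ : SymmetricPower ℂ (Fin a) (SymmetricPower ℂ (Fin b) V) →ₗ[ℂ]
      SymmetricPower ℂ (Fin b) (SymmetricPower ℂ (Fin a) V),
      ∀ v : Fin a → Fin b → V, Φ (tprod ℂ fun i => tprod ℂ fun j => v i j) =
        ∑ σ : Fin a → Perm (Fin b), tprod ℂ fun j => tprod ℂ fun i => v i (σ i j) := by
  classical
  let e := Module.finBasis ℂ V
  set n := Module.finrank ℂ V
  let G : MultilinearMap ℂ (fun _ : Fin a => SymmetricPower ℂ (Fin b) V)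
      (SymmetricPower ℂ (Fin b) (SymmetricPower ℂ (Fin a) V)) :=
    ∑ P : Fin a → Fin b → Fin n, ((MultilinearMap.mkPiAlgebra ℂ (Fin a) ℂ).compLinearMap
      fun i => pm fun j => e.coord (P i j)).smulRight
        (tprod ℂ fun j => tprod ℂ fun i => e (P i j))
  have hG : ∀ x, G x = ∑ P : Fin a → Fin b → Fin n, (∏ i, pm (fun j => e.coord (P i j)) (x i)) •
      (tprod ℂ fun j => tprod ℂ fun i => e (P i j)) := by
    intro x; simp [G]
  refine ⟨symLift G fun τ x => ?_, fun v => ?_⟩
  · rw [hG, hG]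
    symm
    refine Fintype.sum_equiv (Equiv.arrowCongr τ.symm (Equiv.refl _)) _ _ fun P => ?_
    simp only [Equiv.arrowCongr_apply, Equiv.coe_refl, Equiv.symm_symm, Function.comp, id]
    rw [Equiv.prod_comp τ (fun i => pm (fun j => e.coord (P i j)) (x i))]
    congr 2
    funext j
    exact (tprod_equiv τ fun i => e (P i j)).symm
  · rw [symLift_tprod, hG]
    simp only [pm_tprod, Finset.prod_univ_sum, Fintype.piFinset_univ, Finset.sum_smul]
    rw [Finset.sum_comm]
    refine Finset.sum_congr rfl fun σ _ => ?_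
    have h1 : ∀ j, (tprod ℂ fun i => v i (σ i j) : SymmetricPower ℂ (Fin a) V) =
        ∑ Q : Fin a → Fin n, (∏ i, e.coord (Q i) (v i (σ i j))) • tprod ℂ fun i => e (Q i) := by
      intro j
      rw [← expand (tprod ℂ) (fun i p => e.coord p (v i (σ i j))) e]
      simp [e.sum_repr]
    simp only [h1]
    rw [expand (tprod ℂ) (fun j (Q : Fin a → Fin n) => ∏ i, e.coord (Q i) (v i (σ i j)))
      (fun Q => tprod ℂ fun i => e (Q i))]
    refine Fintype.sum_equiv (Equiv.piComm _) _ _ fun P => ?_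
    rw [Finset.prod_comm]
    rfl

theorem FH_injective (a b : ℕ) (hb : (a - 1) ^ 2 ≤ b) [FiniteDimensional ℂ V]
    (Φ : SymmetricPower ℂ (Fin a) (SymmetricPower ℂ (Fin b) V) →ₗ[ℂ]
      SymmetricPower ℂ (Fin b) (SymmetricPower ℂ (Fin a) V))
    (hΦ : ∀ v : Fin a → Fin b → V, Φ (tprod ℂ fun i => tprod ℂ fun j => v i j) =
        ∑ σ : Fin a → Perm (Fin b), tprod ℂ fun j => tprod ℂ fun i => v i (σ i j)) :
    Function.Injective Φ := by
  classical
  let R := (Fin a → V) → ℂ
  let l : Fin a → Module.Dual ℂ V →ₗ[ℂ] R := fun i =>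
    { toFun := fun w y => w (y i)
      map_add' := fun _ _ => rfl
      map_smul' := fun _ _ => rfl }
  let ρ : Perm (Fin a) → R →ₐ[ℂ] R := fun τ =>
    { toFun := fun F y => F fun i => y (τ i)
      map_one' := rfl
      map_mul' := fun _ _ => rfl
      map_zero' := rfl
      map_add' := fun _ _ => rfl
      commutes' := fun _ => rfl }
  have hmain := Av_AA (l := l) (ρ := ρ) (fun _ _ _ => rfl) (fun _ _ _ => rfl) univ b
    (by simpa using hb)
  let X : (Fin a → V) → SymmetricPower ℂ (Fin a) (SymmetricPower ℂ (Fin b) V) := fun y =>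
    tprod ℂ fun i => tprod ℂ fun _ => y i
  let ev : Module.Dual ℂ (SymmetricPower ℂ (Fin b) (SymmetricPower ℂ (Fin a) V)) →ₗ[ℂ] R :=
    { toFun := fun μ y => μ (Φ (X y))
      map_add' := fun _ _ => rfl
      map_smul' := fun _ _ => rfl }
  have hfa : (a ! : ℂ) ≠ 0 := by exact_mod_cast a.factorial_ne_zero
  have hfb : (b ! : ℂ) ≠ 0 := by exact_mod_cast b.factorial_ne_zero
  have hP : PP l univ 1 ^ b ≤ LinearMap.range ev := by
    rw [PP, Submodule.span_pow, Submodule.span_le]
    intro x hx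
    rw [Set.mem_pow] at hx
    obtain ⟨f, rfl⟩ := hx
    choose w hw using fun j => (f j).2
    rw [SetLike.mem_coe, ← Submodule.smul_mem_iff _
      (show ((b ! : ℂ) ^ a * (b ! * (a ! : ℂ) ^ b)) ≠ 0 by positivity)]
    refine ⟨pm fun j => pm fun _ => w j, ?_⟩
    funext y
    simp only [ev, X, LinearMap.coe_mk, AddHom.coe_mk, hΦ fun i _ => y i, map_sum, pm_tprod,
      List.prod_ofFn, ← hw, pow_one, Pi.smul_apply, smul_eq_mul, Finset.prod_apply, pp, l, R]
    have : ∀ j, ∑ τ : Perm (Fin a), ∏ i, w j (y (τ i)) = (a ! : ℂ) * ∏ i, w j (y i) := by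
      intro j
      rw [Finset.sum_congr rfl fun τ _ => Equiv.prod_comp τ fun i => w j (y i)]
      simp [Fintype.card_perm]
    simp only [this, Finset.prod_mul_distrib, sum_const, card_univ, Fintype.card_perm,
      Fintype.card_fin, Fintype.card_pi, prod_const, nsmul_eq_mul]
    push_cast
    ring
  have hker : ∀ x, Φ x = 0 → ∀ w : Fin a → Fin b → Module.Dual ℂ V,
      pm (fun i => pm (w i)) x = 0 := by
    intro x hx w
    have h1 : ∏ i, ∏ j, l i (w i j) ∈ AA l univ b := by
      refine Finset.prod_induction (ι := Fin a) (s := univ) (M := R × Submodule ℂ R)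
        (fun i => (∏ j, l i (w i j), UU l i ^ b)) (fun p => p.1 ∈ p.2)
        (fun _ _ h h' => Submodule.mul_mem_mul h h') (Submodule.one_le.1 le_rfl) ?_ |>
        fun h => by simpa [Prod.fst_prod, Prod.snd_prod, AA] using h
      intro i _
      have := Finset.prod_induction (ι := Fin b) (s := univ) (M := R × Submodule ℂ R)
        (fun j => (l i (w i j), UU l i)) (fun p => p.1 ∈ p.2)
        (fun _ _ h h' => Submodule.mul_mem_mul h h') (Submodule.one_le.1 le_rfl)
        (fun j _ => mem_UU l i _)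
      simpa [Prod.fst_prod, Prod.snd_prod] using this
    obtain ⟨μ, hμ⟩ := hP (hmain _ h1)
    have h2 : pm (fun i => pm (w i)) = ((b ! : ℂ) ^ a) • (μ ∘ₗ Φ) := by
      refine sym_ext_gen _ (span_pure b V) fun y => ?_
      have h3 := congrFun hμ y
      simp only [ev, X, LinearMap.coe_mk, AddHom.coe_mk] at h3
      simp only [LinearMap.smul_apply, LinearMap.comp_apply, h3, pm_tprod, Av_apply, GG]
      simp only [ρ, l, R, sum_const, card_univ, Fintype.card_perm, Fintype.card_fin,
        nsmul_eq_mul, Finset.prod_mul_distrib, prod_const, smul_eq_mul, mem_univ,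
        not_true_eq_false, IsEmpty.forall_iff, implies_true, filter_true, Finset.sum_apply,
        AlgHom.coe_mk, RingHom.coe_mk, MonoidHom.coe_mk, OneHom.coe_mk, Finset.prod_apply,
        LinearMap.coe_mk, AddHom.coe_mk, Finset.mul_sum]
      refine Finset.sum_congr rfl fun τ _ => ?_
      congr 1
      change _ = (∏ i, ∏ j, (fun y : Fin a → V => w i j (y i))) fun i => y (τ i)
      simp only [Finset.prod_apply]
    rw [h2]
    simp [hx]
  rw [injective_iff_map_eq_zero]
  intro x hx
  let e := Module.finBasis ℂ V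
  have f1 : ∀ m : V, (1 : ℂ) • m = ∑ p, e.coord p m • e p := fun m => by simp [e.sum_repr]
  have f3 := frame (k := a) _ _ _ (frame (k := b) _ _ _ f1) x
  simp only [hker x hx, zero_smul, sum_const_zero] at f3
  exact (smul_eq_zero.1 f3).resolve_left (by simp [hfa, hfb])

end Vale.Agent.P181
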