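import Mathlib

namespace Vale.Agent.P181

open Finset Polynomial

lemma polar {κ W N : Type*} [Fintype κ] [DecidableEq κ] [AddCommGroup W] [Module ℂ W]
    [AddCommGroup N] [Module ℂ N] (μ : MultilinearMap ℂ (fun _ : κ => W) N)
    (hμ : ∀ (σ : Equiv.Perm κ) (w : κ → W), μ (fun i => w (σ i)) = μ w)
    (T : Submodule ℂ N) (hT : ∀ v, μ (fun _ => v) ∈ T) (w : κ → W) : μ w ∈ T := by
  classical
  have h1 : ∑ S : Finset κ, ((-1 : ℤ) ^ S.card) • μ (fun _ => ∑ j ∈ Sᶜ, w j) ∈ T :=
    T.sum_mem fun S _ => T.smul_of_tower_mem _ (hT _)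
  have h2 : ∀ S : Finset κ, μ (fun _ => ∑ j ∈ Sᶜ, w j) =
      ∑ r : κ → κ, if S ⊆ (univ.image r)ᶜ then μ (fun i => w (r i)) else 0 := by
    intro S
    rw [μ.map_sum_finset (fun _ j => w j) (fun _ => Sᶜ), ← Finset.sum_filter]
    refine Finset.sum_congr ?_ fun _ _ => rfl
    ext r
    simp only [Fintype.mem_piFinset, mem_compl, mem_filter, mem_univ, true_and, subset_iff,
      mem_image, not_exists]
    exact ⟨fun h x hx i hi => h i (hi ▸ hx), fun h i hi => h hi i rfl⟩
  simp only [h2, Finset.smul_sum] at h1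
  rw [Finset.sum_comm] at h1
  have h3 : ∀ r : κ → κ, ∑ S : Finset κ, ((-1 : ℤ) ^ S.card) •
      (if S ⊆ (univ.image r)ᶜ then μ (fun i => w (r i)) else 0) =
      if Function.Bijective r then μ w else 0 := by
    intro r
    simp only [smul_ite, smul_zero]
    rw [← Finset.sum_filter, ← Finset.sum_smul]
    have : univ.filter (fun S : Finset κ => S ⊆ (univ.image r)ᶜ) = ((univ.image r)ᶜ).powerset := by
      ext S; simp
    rw [this, Finset.sum_powerset_neg_one_pow_card]
    have hiff : (univ.image r)ᶜ = ∅ ↔ Function.Bijective r := by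
      rw [Finset.compl_eq_empty_iff, ← Finite.surjective_iff_bijective]
      simp [Finset.eq_univ_iff_forall, Function.Surjective]
    by_cases hb : Function.Bijective r
    · rw [if_pos (hiff.2 hb), if_pos hb, one_smul]
      exact hμ (Equiv.ofBijective r hb) w
    · rw [if_neg (mt hiff.1 hb), if_neg hb, zero_smul]
  simp only [h3] at h1
  rw [← Finset.sum_filter, Finset.sum_const, ← Nat.cast_smul_eq_nsmul ℂ] at h1
  have hne : ((univ.filter fun r : κ → κ => Function.Bijective r).card : ℂ) ≠ 0 := by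
    rw [Nat.cast_ne_zero, Finset.card_ne_zero]
    exact ⟨id, by simp [Function.bijective_id]⟩
  exact (T.smul_mem_iff hne).1 h1

variable {R : Type*} [CommRing R] [Algebra ℂ R]

lemma coeff_mem (T : Submodule ℂ R) (Q : R[X])
    (h : ∀ t : ℂ, Q.eval (algebraMap ℂ R t) ∈ T) (i : ℕ) : Q.coeff i ∈ T := by
  by_contra hi
  obtain ⟨φ, hφ, hT⟩ := T.exists_le_ker_of_notMem hi
  let P : ℂ[X] := ∑ j ∈ range (Q.natDegree + 1), monomial j (φ (Q.coeff j))
  have hP : P = 0 := by
    apply Polynomial.funext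
    intro t
    have h1 : φ (Q.eval (algebraMap ℂ R t)) = 0 := hT (h t)
    rw [Polynomial.eval_eq_sum_range, map_sum] at h1
    rw [eval_zero, ← h1]
    simp only [P, eval_finset_sum, eval_monomial]
    refine Finset.sum_congr rfl fun j _ => ?_
    rw [← map_pow, mul_comm (Q.coeff j), ← Algebra.smul_def, map_smul, smul_eq_mul, mul_comm]
  have h2 := congrArg (fun P : ℂ[X] => P.coeff i) hP
  simp only [P, finset_sum_coeff, coeff_monomial, Finset.sum_ite_eq', mem_range, coeff_zero] at h2
  split_ifs at h2 with h3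
  · exact hφ h2
  · apply hφ
    rw [Polynomial.coeff_eq_zero_of_natDegree_lt (by omega), map_zero]

lemma coeff_lin_pow (α β : R) (N c : ℕ) :
    ((C β + X * C α) ^ N).coeff c = (N.choose c : R) * β ^ (N - c) * α ^ c := by
  rw [add_comm, add_pow, finset_sum_coeff]
  have : ∀ m, ((X * C α) ^ m * C β ^ (N - m) * (N.choose m : R[X])).coeff c =
      if m = c then (N.choose c : R) * β ^ (N - c) * α ^ c else 0 := by
    intro m
    have : (X * C α) ^ m * C β ^ (N - m) * (N.choose m : R[X]) =
        monomial m ((N.choose m : R) * β ^ (N - m) * α ^ m) := by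
      rw [← C_mul_X_pow_eq_monomial]
      simp only [map_mul, map_pow, map_natCast, mul_pow]
      ring
    rw [this, coeff_monomial]
    split_ifs with h
    · rw [h]
    · rfl
  simp only [this, Finset.sum_ite_eq', mem_range]
  split_ifs with h
  · rfl
  · rw [Nat.choose_eq_zero_of_lt (by omega)]; simp

lemma natDegree_lin_pow (α β : R) (N : ℕ) : ((C β + X * C α) ^ N).natDegree ≤ N := by
  rw [natDegree_le_iff_coeff_eq_zero]
  intro c hc
  rw [coeff_lin_pow, Nat.choose_eq_zero_of_lt hc]; simp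

lemma pow_le_span_pow {W : Type*} [AddCommGroup W] [Module ℂ W] (l : W →ₗ[ℂ] R) (k : ℕ) :
    (LinearMap.range l) ^ k ≤ Submodule.span ℂ (Set.range fun v => l v ^ k) := by
  rw [Submodule.pow_eq_span_pow_set, Submodule.span_le]
  intro x hx
  rw [Set.mem_pow] at hx
  obtain ⟨f, rfl⟩ := hx
  choose w hw using fun j => (f j).2
  have := polar ((MultilinearMap.mkPiAlgebra ℂ (Fin k) R).compLinearMap fun _ => l)
    (fun σ w => by
      simp only [MultilinearMap.compLinearMap_apply, MultilinearMap.mkPiAlgebra_apply]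
      exact Equiv.prod_comp σ fun i => l (w i))
    (Submodule.span ℂ (Set.range fun v => l v ^ k))
    (fun v => Submodule.subset_span ⟨v, by simp⟩) w
  simpa [List.prod_ofFn, hw] using this

end Vale.Agent.P181
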