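import Vale.Agent.P181.Main

namespace Vale.Agent.P181

open TensorProduct Finset Equiv SymmetricPower
open scoped Nat

universe u

section
variable {k : ℕ} {M : Type u} [AddCommGroup M] [Module ℂ M]

/-- the permanent as a multilinear map in the functionals -/
noncomputable def pmM (k : ℕ) (M : Type u) [AddCommGroup M] [Module ℂ M] :
    MultilinearMap ℂ (fun _ : Fin k => Module.Dual ℂ M)
      (Module.Dual ℂ (SymmetricPower ℂ (Fin k) M)) where
  toFun := pm
  map_update_add' := by
    intro _ f i x y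
    refine sym_ext fun m => ?_
    simp only [pm_tprod, LinearMap.add_apply, ← Finset.sum_add_distrib]
    refine Finset.sum_congr rfl fun σ _ => ?_
    simp only [← Finset.mul_prod_erase univ _ (mem_univ i), Function.update_self,
      LinearMap.add_apply, add_mul]
    congr 2 <;> exact Finset.prod_congr rfl fun j hj => by
      simp [Function.update_of_ne (Finset.ne_of_mem_erase hj)]
  map_update_smul' := by
    intro _ f i c x
    refine sym_ext fun m => ?_
    simp only [pm_tprod, LinearMap.smul_apply, Finset.smul_sum]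
    refine Finset.sum_congr rfl fun σ _ => ?_
    simp only [← Finset.mul_prod_erase univ _ (mem_univ i), Function.update_self,
      LinearMap.smul_apply, smul_eq_mul, mul_assoc]
    congr 2
    exact Finset.prod_congr rfl fun j hj => by
      simp [Function.update_of_ne (Finset.ne_of_mem_erase hj)]

lemma pm_perm (τ : Perm (Fin k)) (f : Fin k → Module.Dual ℂ M) :
    pm (fun i => f (τ i)) = pm f := by
  refine sym_ext fun m => ?_
  simp only [pm_tprod]
  refine Fintype.sum_equiv (Equiv.mulRight τ⁻¹) _ _ fun σ => ?_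
  rw [← Equiv.prod_comp τ fun j => f j (m ((Equiv.mulRight τ⁻¹ σ) j))]
  simp

lemma pm_swap {M' : Type u} [AddCommGroup M'] [Module ℂ M'] (f : Fin k → Module.Dual ℂ M)
    (m : Fin k → M) (g : Fin k → Module.Dual ℂ M') (n : Fin k → M')
    (h : ∀ i j, f i (m j) = g j (n i)) : pm f (tprod ℂ m) = pm g (tprod ℂ n) := by
  simp only [pm_tprod, h]
  refine Fintype.sum_equiv (Equiv.inv _) _ _ fun σ => ?_
  rw [← Equiv.prod_comp σ fun j => g j (n ((Equiv.inv _ σ) j))]
  simp

noncomputable def du (k : ℕ) (M : Type u) [AddCommGroup M] [Module ℂ M] :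
    SymmetricPower ℂ (Fin k) (Module.Dual ℂ M) →ₗ[ℂ] Module.Dual ℂ (SymmetricPower ℂ (Fin k) M) :=
  symLift (pmM k M) fun σ f => pm_perm σ f

lemma du_tprod (f : Fin k → Module.Dual ℂ M) : du k M (tprod ℂ f) = pm f := symLift_tprod _ _ f

noncomputable def DD (a b : ℕ) (M : Type u) [AddCommGroup M] [Module ℂ M] :
    SymmetricPower ℂ (Fin a) (SymmetricPower ℂ (Fin b) (Module.Dual ℂ M)) →ₗ[ℂ]
      Module.Dual ℂ (SymmetricPower ℂ (Fin a) (SymmetricPower ℂ (Fin b) M)) :=
  symLift ((pmM a _).compLinearMap fun _ => du b M) fun σ x =>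
    pm_perm σ fun i => du b M (x i)

lemma DD_tprod (a b : ℕ) (w : Fin a → Fin b → Module.Dual ℂ M) :
    DD a b M (tprod ℂ fun i => tprod ℂ (w i)) = pm fun i => pm (w i) := by
  refine (symLift_tprod _ _ _).trans ?_
  change pm (fun i => du b M (tprod ℂ (w i))) = _
  simp only [du_tprod]

end

variable {V : Type u} [AddCommGroup V] [Module ℂ V] [FiniteDimensional ℂ V]

lemma DD_surj (a b : ℕ) : Function.Surjective (DD a b V) := by
  intro μ
  let e := Module.finBasis ℂ V
  have f1 : ∀ m : V, (1 : ℂ) • m = ∑ p, e.coord p m • e p := fun m => by simp [e.sum_repr]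
  have f3 := frame (k := a) _ _ _ (frame (k := b) _ _ _ f1)
  have hc : ((a ! : ℂ) * ((b ! : ℂ) * 1 ^ b) ^ a) ≠ 0 := by simp [Nat.factorial_ne_zero]
  refine ⟨((a ! : ℂ) * ((b ! : ℂ) * 1 ^ b) ^ a)⁻¹ • ∑ P : Fin a → Fin b → Fin (Module.finrank ℂ V),
    μ (tprod ℂ fun i => tprod ℂ fun j => e (P i j)) •
      tprod ℂ fun i => tprod ℂ fun j => e.coord (P i j), ?_⟩
  ext x
  have := congrArg μ (f3 x)
  simp only [map_smul, map_sum, smul_eq_mul] at this
  simp only [map_smul, map_sum, DD_tprod, LinearMap.smul_apply, LinearMap.sum_apply, smul_eq_mul]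
  rw [inv_mul_eq_iff_eq_mul₀ hc, this]
  exact Finset.sum_congr rfl fun P _ => mul_comm _ _

lemma DD_inj (a b : ℕ) : Function.Injective (DD a b V) := by
  rw [injective_iff_map_eq_zero]
  intro x hx
  let e := Module.finBasis ℂ V
  have f1 : ∀ m : Module.Dual ℂ V, (1 : ℂ) • m =
      ∑ p, Module.Dual.eval ℂ V (e p) m • e.coord p := fun m => by
    refine e.ext fun q => ?_
    simp [Finsupp.single_apply]
  have f3 := frame (k := a) _ _ _ (frame (k := b) _ _ _ f1) x
  have hc : ((a ! : ℂ) * ((b ! : ℂ) * 1 ^ b) ^ a) ≠ 0 := by simp [Nat.factorial_ne_zero]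
  have key : ∀ P : Fin a → Fin b → Fin (Module.finrank ℂ V),
      pm (fun i => pm fun j => Module.Dual.eval ℂ V (e (P i j))) x = 0 := by
    intro P
    have : pm (fun i => pm fun j => Module.Dual.eval ℂ V (e (P i j))) =
        (Module.Dual.eval ℂ _ (tprod ℂ fun i => tprod ℂ fun j => e (P i j))) ∘ₗ DD a b V := by
      refine sym_ext_gen (SymmetricPower.tprod ℂ) (span_tprod_eq_top ℂ (Fin b) _) fun w => ?_
      rw [LinearMap.comp_apply, DD_tprod, Module.Dual.eval_apply]
      exact pm_swap _ _ _ _ fun i i' => pm_swap _ _ _ _ fun j j' => rfl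
    rw [this, LinearMap.comp_apply, hx, map_zero]
  simp only [key, zero_smul, sum_const_zero] at f3
  exact (smul_eq_zero.1 f3).resolve_left hc

theorem FH_surjective (a b : ℕ) (hb : (a - 1) ^ 2 ≤ b)
    (Ψ : SymmetricPower ℂ (Fin b) (SymmetricPower ℂ (Fin a) V) →ₗ[ℂ]
      SymmetricPower ℂ (Fin a) (SymmetricPower ℂ (Fin b) V))
    (hΨ : ∀ v : Fin b → Fin a → V, Ψ (tprod ℂ fun i => tprod ℂ fun j => v i j) =
        ∑ σ : Fin b → Perm (Fin a), tprod ℂ fun j => tprod ℂ fun i => v i (σ i j)) :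
    Function.Surjective Ψ := by
  obtain ⟨Φ, hΦ⟩ := exists_FH (V := Module.Dual ℂ V) a b
  have hinj := FH_injective a b hb Φ hΦ
  have adj : ∀ x y, (b ! : ℂ) * DD a b V x (Ψ y) = (a ! : ℂ) * DD b a V (Φ x) y := by
    intro x y
    have : (b ! : ℂ) • (Ψ.dualMap ∘ₗ DD a b V) = (a ! : ℂ) • (DD b a V ∘ₗ Φ) := by
      refine sym_ext_gen _ (span_pure b _) fun w => ?_
      refine sym_ext_gen _ (span_pure a _) fun v => ?_
      simp only [LinearMap.smul_apply, LinearMap.comp_apply, LinearMap.dualMap_apply,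
        hΨ fun i _ => v i, hΦ fun i _ => w i, map_sum, LinearMap.sum_apply,
        DD_tprod a b fun i _ => w i, DD_tprod b a fun _ => w, pm_tprod, smul_eq_mul]
      have h1 : ∀ i, ∑ τ : Perm (Fin b), ∏ j, w i (v (τ j)) = (b ! : ℂ) * ∏ j, w i (v j) := by
        intro i
        rw [Finset.sum_congr rfl fun τ _ => Equiv.prod_comp τ fun j => w i (v j)]
        simp [Fintype.card_perm]
      have h2 : ∀ β : Perm (Fin b), ∏ j, ∏ i, w i (v (β j)) = ∏ i, ∏ j, w i (v j) := by
        intro β
        rw [Equiv.prod_comp β fun j => ∏ i, w i (v j), Finset.prod_comm]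
      simp only [h1, h2, Finset.prod_mul_distrib, sum_const, card_univ, Fintype.card_perm,
        Fintype.card_fin, Fintype.card_pi, prod_const, nsmul_eq_mul]
      push_cast
      ring
    exact LinearMap.congr_fun (LinearMap.congr_fun this x) y
  rw [← LinearMap.dualMap_injective_iff, injective_iff_map_eq_zero]
  intro μ hμ
  obtain ⟨x, rfl⟩ := DD_surj a b μ
  have h0 : DD b a V (Φ x) = 0 := by
    ext y
    have h1 : DD a b V x (Ψ y) = 0 := LinearMap.congr_fun hμ y
    have h2 := adj x y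
    rw [h1, mul_zero] at h2
    exact (mul_eq_zero.1 h2.symm).resolve_left (by simp [Nat.factorial_ne_zero])
  have h3 : Φ x = 0 := DD_inj b a (by rw [h0, map_zero])
  rw [hinj (h3.trans (map_zero Φ).symm), map_zero]

end Vale.Agent.P181
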